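import Vale.Agent.P223.R2.H84.Spec
import Mathlib.AlgebraicTopology.FundamentalGroupoid.FundamentalGroup

/-! P223, modifications of minimal Kaehler manifolds: row C2 (the homomorphism of fundamental
groups at one base point). -/

namespace Vale.Agent.P223.R2.H792

open Path.Homotopic

variable {Y X : Type} [TopologicalSpace Y] [TopologicalSpace X]

theorem qmap_trans (f : C(Y, X)) {a b c : Y} (P : Path.Homotopic.Quotient a b)
    (Q : Path.Homotopic.Quotient b c) : (P.trans Q).map f = (P.map f).trans (Q.map f) := by
  obtain ⟨p, rfl⟩ := Path.Homotopic.Quotient.mk_surjective P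
  obtain ⟨q, rfl⟩ := Path.Homotopic.Quotient.mk_surjective Q
  rw [← Path.Homotopic.Quotient.mk_trans, ← Path.Homotopic.Quotient.mk_map,
    ← Path.Homotopic.Quotient.mk_map, ← Path.Homotopic.Quotient.mk_map,
    ← Path.Homotopic.Quotient.mk_trans, Path.map_trans]

theorem qmap_symm (f : C(Y, X)) {a b : Y} (P : Path.Homotopic.Quotient a b) :
    P.symm.map f = (P.map f).symm := by
  obtain ⟨p, rfl⟩ := Path.Homotopic.Quotient.mk_surjective P
  rw [← Path.Homotopic.Quotient.mk_symm, ← Path.Homotopic.Quotient.mk_map,
    ← Path.Homotopic.Quotient.mk_map, ← Path.Homotopic.Quotient.mk_symm, Path.map_symm]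

theorem qmap_refl (f : C(Y, X)) (a : Y) :
    (Path.Homotopic.Quotient.refl a).map f = Path.Homotopic.Quotient.refl (f a) := by
  rw [← Path.Homotopic.Quotient.mk_refl, ← Path.Homotopic.Quotient.mk_map,
    ← Path.Homotopic.Quotient.mk_refl]
  rfl

theorem symm_cancel {a b c : X} (g : Path.Homotopic.Quotient a b)
    (P : Path.Homotopic.Quotient b c) : g.symm.trans (g.trans P) = P := by
  rw [← Path.Homotopic.Quotient.trans_assoc, Path.Homotopic.Quotient.symm_trans,
    Path.Homotopic.Quotient.refl_trans]

/-- Row C2. -/
theorem piIso_of_map [PathConnectedSpace Y] (f : C(Y, X)) (y0 : Y)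
    (h : Function.Bijective (FundamentalGroup.map f y0)) : H84.PiIso f := by
  have hm : ∀ P : Path.Homotopic.Quotient y0 y0,
      (FundamentalGroup.map f y0 P : Path.Homotopic.Quotient (f y0) (f y0)) = P.map f :=
    fun P => rfl
  intro y
  set g : Path.Homotopic.Quotient y0 y := Path.Homotopic.Quotient.mk
    (PathConnectedSpace.somePath y0 y) with hg
  constructor
  · intro p hp
    set P : Path.Homotopic.Quotient y y := Path.Homotopic.Quotient.mk p with hP
    have h1 : P.map f = Path.Homotopic.Quotient.refl (f y) := by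
      rw [hP, ← Path.Homotopic.Quotient.mk_map, ← Path.Homotopic.Quotient.mk_refl]
      exact Path.Homotopic.Quotient.eq.2 hp
    have h2 : (g.trans (P.trans g.symm)).map f = (Path.Homotopic.Quotient.refl y0).map f := by
      rw [qmap_trans, qmap_trans, h1, qmap_symm, qmap_refl, Path.Homotopic.Quotient.refl_trans,
        Path.Homotopic.Quotient.trans_symm]
    have h3 : g.trans (P.trans g.symm) = Path.Homotopic.Quotient.refl y0 :=
      h.1 (by
        show (g.trans (P.trans g.symm)).map f = (Path.Homotopic.Quotient.refl y0).map f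
        exact h2)
    have h4 : P = Path.Homotopic.Quotient.refl y := by
      have h5 : g.symm.trans ((g.trans (P.trans g.symm)).trans g) =
          g.symm.trans ((Path.Homotopic.Quotient.refl y0).trans g) := by rw [h3]
      simpa [symm_cancel] using h5
    rw [hP, ← Path.Homotopic.Quotient.mk_refl] at h4
    exact Path.Homotopic.Quotient.exact h4
  · intro q
    set Q : Path.Homotopic.Quotient (f y) (f y) := Path.Homotopic.Quotient.mk q with hQ
    obtain ⟨R, hR⟩ := h.2 ((g.map f).trans (Q.trans (g.map f).symm))
    have hR' : Path.Homotopic.Quotient.map (R : Path.Homotopic.Quotient y0 y0) f =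
        (g.map f).trans (Q.trans (g.map f).symm) := hR
    obtain ⟨p, hp⟩ := Path.Homotopic.Quotient.mk_surjective
      (g.symm.trans (Path.Homotopic.Quotient.trans (R : Path.Homotopic.Quotient y0 y0) g))
    refine ⟨p, Path.Homotopic.Quotient.exact ?_⟩
    rw [Path.Homotopic.Quotient.mk_map, hp, qmap_trans, qmap_trans, hR', qmap_symm, ← hQ]
    simp [symm_cancel]

end Vale.Agent.P223.R2.H792
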