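import Vale.Agent.P223.R2.H84.Spec
import Vale.Agent.P223.X.WtX
import Vale.Agent.P223.H.Norm

/-! P223, modifications of minimal Kaehler manifolds: block B4b (pointwise estimate). -/

namespace Vale.Agent.P223.R2.H792

open scoped ContDiff Topology ENNReal
open MeasureTheory Vale.Agent.P223.H Vale.Agent.P223.X Vale.Agent.P223.X.WtX
  Vale.Agent.P223.X.DensX Vale.Agent.P223.R2.H84 Set Filter Function

/-- The partial derivatives of a composition. -/
theorem pd_comp {n : ℕ} {f : E n → ℝ} {Φ : E n → E n} {y : E n}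
    (hf : DifferentiableAt ℝ f (Φ y)) (hΦ : DifferentiableAt ℝ Φ y) (j : Fin n) :
    H.pd j (fun y' => f (Φ y')) y =
      ∑ k, H.pd k f (Φ y) * fderiv ℝ Φ y (Pi.single j 1) k := by
  have h3 : fderiv ℝ (fun y' => f (Φ y')) y = (fderiv ℝ f (Φ y)).comp (fderiv ℝ Φ y) :=
    (hf.hasFDerivAt.comp y hΦ.hasFDerivAt).fderiv
  simp only [H.pd, h3, ContinuousLinearMap.comp_apply]
  set w := fderiv ℝ Φ y (Pi.single j 1)
  have hw : w = ∑ k, w k • (Pi.single k (1 : ℝ) : E n) := by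
    ext j
    simp [Finset.sum_apply, Pi.single_apply]
  conv_lhs => rw [hw]
  rw [map_sum]
  exact Finset.sum_congr rfl fun k _ => by rw [map_smul, smul_eq_mul, mul_comm]

theorem jdet_comp {n : ℕ} {u : Fin n → E n → ℝ} {Φ : E n → E n} {y : E n}
    (hu : ∀ k, DifferentiableAt ℝ (u k) (Φ y)) (hΦ : DifferentiableAt ℝ Φ y) :
    jdet (fun k y' => u k (Φ y')) y = jdet u (Φ y) * (fderiv ℝ Φ y).det := by
  have h1 : (Matrix.of fun i j => H.pd j ((fun k y' => u k (Φ y')) i) y) =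
      (Matrix.of fun i j => H.pd j (u i) (Φ y)) *
        LinearMap.toMatrix' ((fderiv ℝ Φ y : E n →L[ℝ] E n) : E n →ₗ[ℝ] E n) := by
    ext i j
    rw [Matrix.mul_apply]
    simp only [Matrix.of_apply, LinearMap.toMatrix'_apply]
    exact pd_comp (hu i) hΦ j
  rw [jdet, h1, Matrix.det_mul, LinearMap.det_toMatrix', jdet]

theorem jdet_congr {n : ℕ} {u v : Fin n → E n → ℝ} {y : E n} (h : ∀ k, u k =ᶠ[𝓝 y] v k) :
    jdet u y = jdet v y := by
  rw [jdet, jdet]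
  congr 1
  ext i j
  simp only [Matrix.of_apply, H.pd]
  rw [(h i).fderiv_eq]

/-- Block B4b. -/
theorem main : SpecPt := by
  intro n M N X W Γ I I' _ _ _ _ _ _ _ _ _ _ _ C C' F hO G hG P P' hP hφ l hl i γ y j γ₀ Φ hΦ hev
  -- the functions in the charts
  have hrep : ∀ a : Γ × Unit, C'.rep (P'.fn a) γ i =ᶠ[𝓝 y]
      fun y' => C.rep (P.fn a) (γ * γ₀) j (Φ y') := by
    intro a
    filter_upwards [hev] with y' hy'
    simp only [Cov.rep, PUX.fn]
    rw [hφ, hO.equiv, hO.equiv, hy', mul_smul]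
  have hd : ∀ a : Γ × Unit, DifferentiableAt ℝ (C.rep (P.fn a) (γ * γ₀) j) (Φ y) := fun a =>
    ((fn_cc P a).1 (γ * γ₀) j).differentiable one_ne_zero _
  have hj : jdet (fun k : Fin n => C'.rep (P'.fn (l k.succ)) γ i) y =
      jdet (fun k : Fin n => C.rep (P.fn (l k.succ)) (γ * γ₀) j) (Φ y) *
        (fderiv ℝ Φ y).det := by
    rw [jdet_congr fun k => hrep (l k.succ)]
    exact jdet_comp (fun k => hd (l k.succ)) hΦ
  have e0 : C'.rep (P'.fn (l 0)) γ i y = P'.φ () (γ • C'.ψ i y) := by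
    rw [Cov.rep, PUX.fn, hl]; simp
  have hF : F (γ • C'.ψ i y) = (γ * γ₀) • C.ψ j (Φ y) := by
    rw [hO.equiv, hev.self_of_nhds, mul_smul]
  have e1 : ∀ k : Fin n, gradSq (G j) (C.rep (P.fn (l k.succ)) (γ * γ₀) j) (Φ y) =
      gsX C G (P.φ ()) (F ((l k.succ).1⁻¹ • γ • C'.ψ i y)) := by
    intro k
    rw [hO.equiv, hF, ← gsX_eq hG]
    exact gsX_smul hG (P.φ ()) (l k.succ).1⁻¹ ((γ * γ₀) • C.ψ j (Φ y))
  have hP' : 0 ≤ P'.φ () (γ • C'.ψ i y) := by rw [hφ]; exact hP _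
  have h := Norm.jdet_le (G j) (fun k : Fin n => C.rep (P.fn (l k.succ)) (γ * γ₀) j) (Φ y)
    (hG.pos j (Φ y))
  simp only [e1] at h
  rw [e0, hj, abs_mul, abs_mul, abs_of_nonneg hP',
    ← ENNReal.ofReal_prod_of_nonneg fun i _ => Real.sqrt_nonneg _,
    ← ENNReal.ofReal_mul hP', ← ENNReal.ofReal_mul
      (mul_nonneg hP' (Finset.prod_nonneg fun i _ => Real.sqrt_nonneg _))]
  refine ENNReal.ofReal_le_ofReal ?_
  calc P'.φ () (γ • C'.ψ i y) *
      (|jdet (fun k : Fin n => C.rep (P.fn (l k.succ)) (γ * γ₀) j) (Φ y)| *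
        |(fderiv ℝ Φ y).det|)
      ≤ P'.φ () (γ • C'.ψ i y) *
      ((H.dens (G j) (Φ y) * ∏ k : Fin n,
        √(gsX C G (P.φ ()) (F ((l k.succ).1⁻¹ • γ • C'.ψ i y)))) * |(fderiv ℝ Φ y).det|) :=
        mul_le_mul_of_nonneg_left (mul_le_mul_of_nonneg_right h (abs_nonneg _)) hP'
    _ = _ := by ring

end Vale.Agent.P223.R2.H792
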