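import Vale.Agent.P223.R2.H84.SpecDeg
import Mathlib.MeasureTheory.Measure.Haar.Unique
import Mathlib.Analysis.Calculus.ParametricIntegral
import Mathlib.Geometry.Manifold.PartitionOfUnity

/-! P223, modifications: row D2 (a measure on `ℝ^n` annihilating the partial derivatives of test
functions is translation invariant, hence a multiple of Lebesgue measure). -/

namespace Vale.Agent.P223.R2.H792.Tr

open scoped ContDiff Topology ENNReal Manifold
open MeasureTheory Vale.Agent.P223.H Vale.Agent.P223.X Vale.Agent.P223.R2.H84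

variable {n : ℕ}

theorem pd_sum (η : E n → ℝ) (x v : E n) :
    fderiv ℝ η x v = ∑ k, v k * fderiv ℝ η x (Pi.single k 1) := by
  have hv : v = ∑ k, v k • (Pi.single k (1 : ℝ) : E n) := by
    funext j
    simp [Finset.sum_apply, Pi.single_apply]
  conv_lhs => rw [hv]
  rw [map_sum]
  refine Finset.sum_congr rfl fun k _ => ?_
  rw [map_smul, smul_eq_mul]

theorem deriv_zero (m : Measure (E n)) [IsFiniteMeasureOnCompacts m]
    (h : ∀ (k : Fin n) (η : E n → ℝ), ContDiff ℝ ∞ η → HasCompactSupport η →
      ∫ x, H.pd k η x ∂m = 0)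
    (η : E n → ℝ) (hη : ContDiff ℝ ∞ η) (hc : HasCompactSupport η) (v : E n) :
    ∫ x, fderiv ℝ η x v ∂m = 0 := by
  have e : ∫ x, fderiv ℝ η x v ∂m = ∫ x, ∑ k, v k * fderiv ℝ η x (Pi.single k 1) ∂m :=
    integral_congr_ae (ae_of_all _ fun x => pd_sum η x v)
  rw [e, integral_finsetSum]
  · refine Finset.sum_eq_zero fun k _ => ?_
    rw [integral_const_mul]
    have h1 := h k η hη hc
    simp only [H.pd] at h1
    rw [h1, mul_zero]
  · intro k _
    apply Integrable.const_mul
    exact ((hη.continuous_fderiv (by simp)).clm_apply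
      continuous_const).integrable_of_hasCompactSupport (hc.fderiv_apply ℝ _)

theorem transl (m : Measure (E n)) [IsFiniteMeasureOnCompacts m]
    (h : ∀ (k : Fin n) (η : E n → ℝ), ContDiff ℝ ∞ η → HasCompactSupport η →
      ∫ x, H.pd k η x ∂m = 0)
    (η : E n → ℝ) (hη : ContDiff ℝ ∞ η) (hc : HasCompactSupport η) (v : E n) :
    ∫ x, η (x + v) ∂m = ∫ x, η x ∂m := by
  have hd : ∀ t0 : ℝ, HasDerivAt (fun t : ℝ => ∫ x, η (x + t • v) ∂m) 0 t0 := by
    intro t0
    obtain ⟨R, hR⟩ := hc.isCompact.isBounded.subset_closedBall (0 : E n)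
    obtain ⟨C, hC⟩ := (hc.fderiv ℝ).exists_bound_of_continuous (hη.continuous_fderiv (by simp))
    have hcs : ∀ t : ℝ, HasCompactSupport (fun x => η (x + t • v)) := fun t =>
      hc.comp_homeomorph (Homeomorph.addRight (t • v))
    have hct : ∀ t : ℝ, Continuous (fun x => η (x + t • v)) := fun t =>
      hη.continuous.comp (continuous_id.add continuous_const)
    have key := (hasDerivAt_integral_of_dominated_loc_of_deriv_le (μ := m)
      (F := fun t x => η (x + t • v)) (x₀ := t0) (s := Metric.ball t0 1)
      (Metric.ball_mem_nhds _ one_pos) (F' := fun t x => fderiv ℝ η (x + t • v) v)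
      (bound := (Metric.closedBall (0 : E n) (R + (|t0| + 1) * ‖v‖)).indicator
        fun _ => C * ‖v‖) ?_ ?_ ?_ ?_ ?_ ?_).2
    · have e : ∫ x, fderiv ℝ η (x + t0 • v) v ∂m = 0 := by
        have h2 := deriv_zero m h (fun x => η (x + t0 • v))
          (hη.comp (contDiff_id.add contDiff_const)) (hcs t0) v
        simpa [fderiv_comp_add_right] using h2
      rwa [e] at key
    · exact Filter.Eventually.of_forall fun t => (hct t).aestronglyMeasurable
    · exact (hct t0).integrable_of_hasCompactSupport (hcs t0)
    · exact (((hη.continuous_fderiv (by simp)).comp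
        (continuous_id.add continuous_const)).clm_apply continuous_const).aestronglyMeasurable
    · refine ae_of_all _ fun x t ht => ?_
      by_cases hx : x ∈ Metric.closedBall (0 : E n) (R + (|t0| + 1) * ‖v‖)
      · rw [Set.indicator_of_mem hx]
        exact ((fderiv ℝ η (x + t • v)).le_opNorm v).trans
          (mul_le_mul_of_nonneg_right (hC _) (norm_nonneg _))
      · rw [Set.indicator_of_notMem hx]
        have h3 : x + t • v ∉ tsupport η := by
          intro h4
          apply hx
          have h5 := hR h4
          rw [mem_closedBall_zero_iff] at h5 ⊢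
          have h6 : ‖t • v‖ ≤ (|t0| + 1) * ‖v‖ := by
            rw [norm_smul]
            apply mul_le_mul_of_nonneg_right _ (norm_nonneg _)
            rw [Metric.mem_ball, Real.dist_eq] at ht
            rw [Real.norm_eq_abs]
            have h7 := abs_sub_abs_le_abs_sub t t0
            linarith
          have h8 : ‖x‖ ≤ ‖x + t • v‖ + ‖t • v‖ := by
            have := norm_sub_le (x + t • v) (t • v)
            simpa using this
          linarith
        have h4 : fderiv ℝ η (x + t • v) = 0 := by
          by_contra h5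
          exact h3 (support_fderiv_subset ℝ h5)
        simp [h4]
    · rw [integrable_indicator_iff Metric.isClosed_closedBall.measurableSet]
      exact integrableOn_const (isCompact_closedBall _ _).measure_lt_top.ne
    · refine ae_of_all _ fun x t _ => ?_
      have h1 : HasFDerivAt η (fderiv ℝ η (x + t • v)) (x + t • v) :=
        (hη.differentiable (by simp)).differentiableAt.hasFDerivAt
      have h2 : HasDerivAt (fun t : ℝ => x + t • v) v t := by
        simpa using ((hasDerivAt_id t).smul_const v).const_add x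
      exact h1.comp_hasDerivAt t h2
  have h1 := is_const_of_deriv_eq_zero (fun t => (hd t).differentiableAt)
    (fun t => (hd t).deriv) 1 0
  simpa using h1

theorem le_of (m1 m2 : Measure (E n)) [IsFiniteMeasureOnCompacts m1]
    [IsFiniteMeasureOnCompacts m2]
    (h : ∀ η : E n → ℝ, ContDiff ℝ ∞ η → HasCompactSupport η →
      ∫ x, η x ∂m1 = ∫ x, η x ∂m2) (K U : Set (E n)) (hK : IsCompact K) (hU : IsOpen U)
    (hKU : K ⊆ U) : m1 K ≤ m2 U := by
  obtain ⟨L, hL, hKL, hLU⟩ := exists_compact_between hK hU hKU
  obtain ⟨f, hf1, hf0, hf⟩ := exists_contMDiffMap_one_nhds_of_subset_interior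
    (I := 𝓘(ℝ, E n)) (n := (⊤ : ℕ∞)) hK.isClosed hKL
  have hc : HasCompactSupport f := HasCompactSupport.intro hL hf0
  have hd : ContDiff ℝ ∞ f := f.contMDiff.contDiff
  have e := h f hd hc
  have i1 : Integrable f m1 := hd.continuous.integrable_of_hasCompactSupport hc
  have i2 : Integrable f m2 := hd.continuous.integrable_of_hasCompactSupport hc
  have hfK : ∀ x ∈ K, f x = 1 := fun x hx => hf1.self_of_nhdsSet x hx
  calc m1 K = ∫⁻ x, K.indicator 1 x ∂m1 := (lintegral_indicator_one hK.measurableSet).symm
    _ ≤ ∫⁻ x, ENNReal.ofReal (f x) ∂m1 := lintegral_mono fun x => by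
        by_cases hx : x ∈ K
        · simp [hx, hfK x hx]
        · simp [hx]
    _ = ENNReal.ofReal (∫ x, f x ∂m1) :=
        (ofReal_integral_eq_lintegral_ofReal i1 (ae_of_all _ fun x => (hf x).1)).symm
    _ = ENNReal.ofReal (∫ x, f x ∂m2) := by rw [e]
    _ = ∫⁻ x, ENNReal.ofReal (f x) ∂m2 :=
        ofReal_integral_eq_lintegral_ofReal i2 (ae_of_all _ fun x => (hf x).1)
    _ ≤ ∫⁻ x, U.indicator 1 x ∂m2 := lintegral_mono fun x => by
        by_cases hx : x ∈ U
        · simpa [hx] using (hf x).2
        · simp [hx, hf0 x (fun h' => hx (hLU h'))]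
    _ = m2 U := lintegral_indicator_one hU.measurableSet

theorem ext_of (m1 m2 : Measure (E n)) [IsFiniteMeasureOnCompacts m1]
    [IsFiniteMeasureOnCompacts m2]
    (h : ∀ η : E n → ℝ, ContDiff ℝ ∞ η → HasCompactSupport η →
      ∫ x, η x ∂m1 = ∫ x, η x ∂m2) : m1 = m2 := by
  refine Measure.OuterRegular.ext_isOpen fun U hU => le_antisymm ?_ ?_
  · rw [hU.measure_eq_iSup_isCompact]
    exact iSup_le fun K => iSup_le fun hKU => iSup_le fun hK => le_of m1 m2 h K U hK hU hKU
  · rw [hU.measure_eq_iSup_isCompact]
    exact iSup_le fun K => iSup_le fun hKU => iSup_le fun hK =>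
      le_of m2 m1 (fun η a b => (h η a b).symm) K U hK hU hKU

/-- Row D2. -/
theorem specTr : SpecTr := by
  intro n m hm h
  have := hm
  have : m.IsAddLeftInvariant := by
    refine ⟨fun v => ?_⟩
    have : IsFiniteMeasureOnCompacts (Measure.map (fun x => v + x) m) := by
      have : (Measure.map (Homeomorph.addLeft v) m).Regular :=
        Measure.Regular.map (Homeomorph.addLeft v)
      exact this.toIsFiniteMeasureOnCompacts
    refine ext_of _ _ fun η hη hc => ?_
    rw [integral_map (measurable_const_add v).aemeasurable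
      hη.continuous.aestronglyMeasurable]
    have h1 := transl m h η hη hc v
    simpa [add_comm] using h1
  exact ⟨Measure.addHaarScalarFactor m volume, Measure.isAddLeftInvariant_eq_smul m volume⟩

end Vale.Agent.P223.R2.H792.Tr
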